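import Vale.Agent.P085b.All

theorem Vale.Agent.Results.P085.General.result {H : Type*} [NormedAddCommGroup H]
    [InnerProductSpace ℂ H] [CompleteSpace H] (M : VonNeumannAlgebra H) :
    (Vale.Agent.P085.HasSeparablePredual M → Vale.Agent.P085.IsSinglyGenerated M) ∧
      (TopologicalSpace.SeparableSpace H → Vale.Agent.P085.IsSinglyGenerated M) :=
  ⟨fun h => Vale.Agent.P085.G.all_single M (Vale.Agent.P085.G.all_sep h),
    fun h => Vale.Agent.P085.G.all_single M ((Vale.Agent.P085.G.s_sp H M).2.2 h)⟩
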