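import Vale.Agent.P085.Main

theorem Vale.Agent.Results.P085.Generator.result {H : Type*} [NormedAddCommGroup H]
    [InnerProductSpace ℂ H] [CompleteSpace H] [TopologicalSpace.SeparableSpace H]
    (M : VonNeumannAlgebra H) (hM : Vale.Agent.P085.IsTypeII1Factor M) :
    Vale.Agent.P085.IsSinglyGenerated M :=
  Vale.Agent.P085.singly_generated M hM
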